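import Mathlib

/-!
Derivations of a field of characteristic `p` and `p`-dependence.
-/

set_option autoImplicit false

open Polynomial

namespace Crest.Agent.R9

/-- Derivations of a field into itself. -/
abbrev Der (L : Type*) [Field L] := Derivation ℤ L L

variable {L : Type*} [Field L] (p : ℕ) [hp : Fact p.Prime] [CharP L p]

variable (L) in
/-- The subfield of `p`-th powers. -/
noncomputable def pw : Subfield L := (frobenius L p).fieldRange

theorem mem_pw {x : L} : x ∈ pw L p ↔ ∃ t : L, t ^ p = x := by
  simp [pw, RingHom.mem_fieldRange, frobenius_def]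

theorem pow_mem_pw (x : L) : x ^ p ∈ pw L p := (mem_pw p).2 ⟨x, rfl⟩

/-- The subfield generated by a subfield `M` and an element `x`. -/
noncomputable def adj (M : Subfield L) (x : L) : Subfield L :=
  (IntermediateField.adjoin M {x}).toSubfield

omit hp [CharP L p] in
theorem self_mem_adj (M : Subfield L) (x : L) : x ∈ adj M x :=
  IntermediateField.mem_adjoin_simple_self M x

omit hp [CharP L p] in
theorem le_adj (M : Subfield L) (x : L) : M ≤ adj M x := fun a ha =>
  (IntermediateField.adjoin M {x}).algebraMap_mem (⟨a, ha⟩ : M)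

omit hp [CharP L p] in
theorem adj_le {M N : Subfield L} {x : L} (hM : M ≤ N) (hx : x ∈ N) : adj M x ≤ N := by
  intro w hw
  have : IntermediateField.adjoin M {x} ≤ N.toIntermediateField (fun a => hM a.2) := by
    rw [IntermediateField.adjoin_le_iff]
    simpa using hx
  exact this hw

theorem isIntegral_of_pw_le {M : Subfield L} (hM : pw L p ≤ M) (x : L) : IsIntegral M x := by
  refine ⟨X ^ p - C (⟨x ^ p, hM (pow_mem_pw p x)⟩ : M), monic_X_pow_sub_C _ hp.out.ne_zero, ?_⟩
  simp only [eval₂_sub, eval₂_pow, eval₂_X, eval₂_C]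
  exact sub_self _

theorem adj_induction {M : Subfield L} (hM : pw L p ≤ M) (x : L) {C : L → Prop}
    (h1 : ∀ a ∈ M, ∀ n : ℕ, C (a * x ^ n)) (h2 : ∀ u v, C u → C v → C (u + v)) :
    ∀ w ∈ adj M x, C w := by
  intro w hw
  have hw' : w ∈ (IntermediateField.adjoin M {x}).toSubalgebra := hw
  rw [IntermediateField.adjoin_simple_toSubalgebra_of_isAlgebraic
    (isIntegral_of_pw_le p hM x).isAlgebraic, Algebra.adjoin_singleton_eq_range_aeval] at hw'
  obtain ⟨f, rfl⟩ := hw'
  change C (aeval x f)
  clear hw
  induction f using Polynomial.induction_on' with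
  | add f g hf hg => rw [map_add]; exact h2 _ _ hf hg
  | monomial n a => rw [aeval_monomial]; exact h1 a a.2 n

omit hp in
theorem der_pow_char {R N : Type*} [CommRing R] [Algebra R L] [AddCommGroup N] [Module L N]
    [Module R N] (D : Derivation R L N) (t : L) : D (t ^ p) = 0 := by
  rw [D.leibniz_pow, ← Nat.cast_smul_eq_nsmul L, CharP.cast_eq_zero, zero_smul]

theorem der_pw {R N : Type*} [CommRing R] [Algebra R L] [AddCommGroup N] [Module L N]
    [Module R N] (D : Derivation R L N) {a : L} (ha : a ∈ pw L p) : D a = 0 := by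
  obtain ⟨t, rfl⟩ := (mem_pw p).1 ha
  exact der_pow_char p D t

theorem der_adj {R N : Type*} [CommRing R] [Algebra R L] [AddCommGroup N] [Module L N]
    [Module R N] (D : Derivation R L N) {x : L} (hx : D x = 0) {w : L}
    (hw : w ∈ adj (pw L p) x) : D w = 0 := by
  refine adj_induction p le_rfl x (C := fun w => D w = 0) ?_ ?_ w hw
  · intro a ha n
    rw [D.leibniz, D.leibniz_pow, hx, der_pw p D ha]
    simp
  · intro u v hu hv
    rw [map_add, hu, hv, add_zero]

theorem minpoly_eq_of_not_mem {M : Subfield L} (hM : pw L p ≤ M) {x : L} (hx : x ∉ M) :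
    minpoly M x = X ^ p - C (⟨x ^ p, hM (pow_mem_pw p x)⟩ : M) := by
  symm
  apply minpoly.eq_of_irreducible_of_monic
  · apply X_pow_sub_C_irreducible_of_prime hp.out
    intro b hb
    apply hx
    have h1 : (b : L) ^ p = x ^ p := by
      have := congrArg Subtype.val hb
      simpa using this
    have h2 : (b : L) = x := frobenius_inj L p h1
    exact h2 ▸ b.2
  · simp only [map_sub, map_pow, aeval_X, aeval_C]
    exact sub_self _
  · exact monic_X_pow_sub_C _ hp.out.ne_zero

/-- Exchange property. -/
theorem exchange {M : Subfield L} (hM : pw L p ≤ M) {x z : L} (hx : x ∉ M) (hxz : x ∈ adj M z) :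
    z ∈ adj M x := by
  have hz : z ∉ M := fun hz => hx (adj_le le_rfl hz hxz)
  have hle : IntermediateField.adjoin M {x} ≤ IntermediateField.adjoin M {z} := by
    rw [IntermediateField.adjoin_le_iff]
    exact Set.singleton_subset_iff.2 hxz
  have hix := isIntegral_of_pw_le p hM x
  have hiz := isIntegral_of_pw_le p hM z
  have := IntermediateField.adjoin.finiteDimensional hiz
  have heq : IntermediateField.adjoin M {x} = IntermediateField.adjoin M {z} := by
    apply IntermediateField.eq_of_le_of_finrank_eq hle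
    rw [IntermediateField.adjoin.finrank hix, IntermediateField.adjoin.finrank hiz,
      minpoly_eq_of_not_mem p hM hx, minpoly_eq_of_not_mem p hM hz, natDegree_X_pow_sub_C,
      natDegree_X_pow_sub_C]
  change z ∈ IntermediateField.adjoin M {x}
  rw [heq]
  exact IntermediateField.mem_adjoin_simple_self M z

theorem exists_der_of_adj_eq_top {M : Subfield L} (hM : pw L p ≤ M) {x : L} (hx : x ∉ M)
    (htop : ∀ z, z ∈ adj M x) : ∃ D : Der L, (∀ m ∈ M, D m = 0) ∧ D x = 1 := by
  have hsurj : Function.Surjective (aeval x : M[X] →ₐ[M] L) := by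
    intro w
    have hw' : w ∈ (IntermediateField.adjoin M {x}).toSubalgebra := htop w
    rw [IntermediateField.adjoin_simple_toSubalgebra_of_isAlgebraic
      (isIntegral_of_pw_le p hM x).isAlgebraic, Algebra.adjoin_singleton_eq_range_aeval] at hw'
    exact hw'
  have hd : ∀ f : M[X], aeval x f = 0 → aeval x (derivative' f) = 0 := by
    intro f hf
    obtain ⟨g, rfl⟩ := minpoly.dvd M x hf
    have h0 : derivative (minpoly M x) = 0 := by
      rw [minpoly_eq_of_not_mem p hM hx]
      simp [derivative_X_pow]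
    change aeval x (derivative (minpoly M x * g)) = 0
    rw [derivative_mul, h0]
    simp
  let D : Derivation M L L := Derivation.liftOfSurjective hsurj hd
  refine ⟨D.restrictScalars ℤ, fun m hm => ?_, ?_⟩
  · exact D.map_algebraMap (⟨m, hm⟩ : M)
  · have := Derivation.liftOfSurjective_apply hsurj hd X
    simpa using this

/-- Separation lemma: an element outside a subfield containing the `p`-th powers is detected by a
derivation vanishing on the subfield. -/
theorem exists_der {M : Subfield L} (hM : pw L p ≤ M) {x : L} (hx : x ∉ M) :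
    ∃ D : Der L, (∀ m ∈ M, D m = 0) ∧ D x = 1 := by
  let S : Set (Subfield L) := {N | M ≤ N ∧ x ∉ N}
  obtain ⟨N, -, hN⟩ : ∃ N, M ≤ N ∧ Maximal (· ∈ S) N := by
    apply zorn_le_nonempty₀ S _ M ⟨le_rfl, hx⟩
    intro c hc hchain y hy
    refine ⟨sSup c, ⟨(hc hy).1.trans (le_sSup hy), ?_⟩, fun z hz => le_sSup hz⟩
    rw [Subfield.mem_sSup_of_directedOn ⟨y, hy⟩ hchain.directedOn]
    rintro ⟨N, hN, hxN⟩
    exact (hc hN).2 hxN
  have hMN : M ≤ N := hN.prop.1
  have hxN : x ∉ N := hN.prop.2
  have hpN : pw L p ≤ N := hM.trans hMN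
  have htop : ∀ z, z ∈ adj N x := by
    intro z
    by_contra hz
    have h1 : x ∉ adj N z := fun h => hz (exchange p hpN hxN h)
    have h2 : adj N z ≤ N := hN.le_of_ge ⟨hMN.trans (le_adj N z), h1⟩ (le_adj N z)
    exact hz (le_adj N x (h2 (self_mem_adj N z)))
  obtain ⟨D, hD, hDx⟩ := exists_der_of_adj_eq_top p hpN hxN htop
  exact ⟨D, fun m hm => hD m (hMN hm), hDx⟩

theorem mem_pw_of_der {x : L} (h : ∀ D : Der L, D x = 0) : x ∈ pw L p := by
  by_contra hx
  obtain ⟨D, -, hD⟩ := exists_der p le_rfl hx
  rw [h D] at hD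
  exact zero_ne_one hD

theorem mem_adj_of_der {x y : L} (h : ∀ D : Der L, D x = 0 → D y = 0) : y ∈ adj (pw L p) x := by
  by_contra hy
  obtain ⟨D, h1, hD⟩ := exists_der p (le_adj _ x) hy
  rw [h D (h1 x (self_mem_adj _ x))] at hD
  exact zero_ne_one hD

end Crest.Agent.R9
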