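import Crest.Agent.R9.FuncEq
import Crest.Prelude.Def_MilnorK

/-!
Logarithmic derivatives on `Fˣ / p` and the proportionality relation.
-/

set_option autoImplicit false
set_option linter.unusedSectionVars false

open Crest.NumberTheoryR.MilnorK

namespace Crest.Agent.R9

variable {F : Type*} [Field F] (p : ℕ)

open Classical in
/-- The class of a field element (zero for zero). -/
noncomputable def cc (x : F) : KOne F p := if h : x = 0 then 0 else cls F p (Units.mk0 x h)

theorem cc_mk0 {x : F} (h : x ≠ 0) : cc p x = cls F p (Units.mk0 x h) := by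
  simp [cc, h]

theorem cc_unit (u : Fˣ) : cc p (u : F) = cls F p u := by
  rw [cc_mk0 p u.ne_zero, Units.mk0_val]

theorem cls_mul (u v : Fˣ) : cls F p (u * v) = cls F p u + cls F p v := rfl

theorem cc_mul {x y : F} (hx : x ≠ 0) (hy : y ≠ 0) : cc p (x * y) = cc p x + cc p y := by
  rw [cc_mk0 p hx, cc_mk0 p hy, cc_mk0 p (mul_ne_zero hx hy), ← cls_mul]
  congr 1
  ext
  simp

theorem cc_one : cc p (1 : F) = 0 := by
  rw [← Units.val_one, cc_unit]
  rfl

theorem cc_pow {x : F} (hx : x ≠ 0) (n : ℕ) : cc p (x ^ n) = n • cc p x := by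
  induction n with
  | zero => simp [cc_one]
  | succ n ih => rw [pow_succ, cc_mul p (pow_ne_zero n hx) hx, ih, succ_nsmul]

theorem cc_inv {x : F} (hx : x ≠ 0) : cc p x⁻¹ = -cc p x := by
  have := cc_mul p hx (inv_ne_zero hx)
  rw [mul_inv_cancel₀ hx, cc_one] at this
  exact (neg_eq_of_add_eq_zero_right this.symm).symm

theorem cc_div {x y : F} (hx : x ≠ 0) (hy : y ≠ 0) : cc p (x / y) = cc p x - cc p y := by
  rw [div_eq_mul_inv, cc_mul p hx (inv_ne_zero hy), cc_inv p hy, sub_eq_add_neg]

theorem cc_surj (a : KOne F p) : ∃ x : F, x ≠ 0 ∧ cc p x = a := by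
  induction a using QuotientAddGroup.induction_on with
  | H u => exact ⟨(Additive.toMul u : Fˣ), Units.ne_zero _, by rw [cc_unit]; rfl⟩

variable [hp : Fact p.Prime] [CharP F p]

theorem cc_eq_zero_iff {x : F} (hx : x ≠ 0) : cc p x = 0 ↔ x ∈ pw F p := by
  rw [cc_mk0 p hx, cls, QuotientAddGroup.eq_zero_iff, mem_pw]
  constructor
  · rintro ⟨u, hu⟩
    refine ⟨(Additive.toMul u : Fˣ), ?_⟩
    have := congrArg (fun a : Additive Fˣ => ((Additive.toMul a : Fˣ) : F)) hu
    simpa using this
  · rintro ⟨t, rfl⟩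
    have ht : t ≠ 0 := fun h => hx (by rw [h, zero_pow hp.out.ne_zero])
    refine ⟨Additive.ofMul (Units.mk0 t ht), ?_⟩
    apply Additive.toMul.injective
    ext
    simp

theorem cc_eq_iff {x y : F} (hx : x ≠ 0) (hy : y ≠ 0) : cc p x = cc p y ↔ x / y ∈ pw F p := by
  rw [← cc_eq_zero_iff p (div_ne_zero hx hy), cc_div p hx hy, sub_eq_zero]

theorem cc_pw {a : F} (ha : a ∈ pw F p) : cc p a = 0 := by
  by_cases h : a = 0
  · simp [cc, h]
  · exact (cc_eq_zero_iff p h).2 ha

theorem exists_of_cc_eq {x y : F} (hx : x ≠ 0) (hy : y ≠ 0) (h : cc p x = cc p y) :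
    ∃ t ∈ pw F p, t ≠ 0 ∧ x = t * y :=
  ⟨x / y, (cc_eq_iff p hx hy).1 h, div_ne_zero hx hy, by field_simp⟩

theorem cc_neg {x : F} (hx : x ≠ 0) : cc p (-x) = cc p x := by
  rw [cc_eq_iff p (neg_ne_zero.2 hx) hx, neg_div, div_self hx]
  exact neg_mem (one_mem _)

/-- The logarithmic derivative on units. -/
noncomputable def dlogU (D : Der F) : Additive Fˣ →+ F where
  toFun u := D ((Additive.toMul u : Fˣ) : F) / ((Additive.toMul u : Fˣ) : F)
  map_zero' := by simp
  map_add' u v := by
    have hu := (Additive.toMul u).ne_zero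
    have hv := (Additive.toMul v).ne_zero
    simp only [toMul_add, Units.val_mul, der_mul]
    field_simp
    ring

/-- The logarithmic derivative on `Fˣ / p`. -/
noncomputable def dlog (D : Der F) : KOne F p →+ F :=
  QuotientAddGroup.lift (pMultiples F p) (dlogU D) (by
    rintro _ ⟨u, rfl⟩
    rw [AddMonoidHom.mem_ker, nsmulAddMonoidHom_apply, map_nsmul, nsmul_eq_mul,
      CharP.cast_eq_zero, zero_mul])

theorem dlog_cc (D : Der F) (x : F) : dlog p D (cc p x) = D x / x := by
  by_cases hx : x = 0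
  · simp [cc, hx]
  · rw [cc_mk0 p hx]
    rfl

theorem dlog_smul (D : Der F) (j : ZMod p) (a : KOne F p) :
    dlog p D (j • a) = (j.val : F) * dlog p D a := by
  have : j • a = j.val • a := by
    conv_lhs => rw [← ZMod.natCast_zmod_val j]
    rw [Nat.cast_smul_eq_nsmul]
  rw [this, map_nsmul, nsmul_eq_mul]

theorem eq_zero_of_dlog {a : KOne F p} (h : ∀ D : Der F, dlog p D a = 0) : a = 0 := by
  obtain ⟨x, hx, rfl⟩ := cc_surj p a
  rw [cc_eq_zero_iff p hx]
  apply mem_pw_of_der p
  intro D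
  have := h D
  rw [dlog_cc] at this
  exact (div_eq_zero_iff.1 this).resolve_right hx

/-- Proportionality of logarithmic forms. -/
def Par (a b : KOne F p) : Prop :=
  ∀ D E : Der F, dlog p D a * dlog p E b = dlog p E a * dlog p D b

theorem Par.symm {a b : KOne F p} (h : Par p a b) : Par p b a := fun D E => by
  linear_combination -h D E

theorem par_zero_right (a : KOne F p) : Par p a 0 := fun D E => by simp

theorem par_self (a : KOne F p) : Par p a a := fun D E => by ring

theorem Par.add_right {a b c : KOne F p} (h : Par p a b) (h' : Par p a c) : Par p a (b + c) :=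
  fun D E => by
    rw [map_add, map_add]
    linear_combination h D E + h' D E

theorem Par.neg_right {a b : KOne F p} (h : Par p a b) : Par p a (-b) :=
  fun D E => by
    rw [map_neg, map_neg]
    linear_combination -h D E

theorem Par.smul_right {a b : KOne F p} (h : Par p a b) (j : ZMod p) : Par p a (j • b) :=
  fun D E => by
    rw [dlog_smul, dlog_smul]
    linear_combination (j.val : F) * h D E

theorem Par.trans {a b c : KOne F p} (h : Par p a b) (h' : Par p b c) (hb : b ≠ 0) :
    Par p a c := by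
  have : ∃ G : Der F, dlog p G b ≠ 0 := by
    by_contra hne
    push Not at hne
    exact hb (eq_zero_of_dlog p hne)
  obtain ⟨G, hG⟩ := this
  intro D E
  apply mul_left_cancel₀ hG
  linear_combination dlog p E c * h D G + dlog p G a * h' D E - dlog p D c * h E G

theorem par_cc_iff {x y : F} (hx : x ≠ 0) (hy : y ≠ 0) :
    Par p (cc p x) (cc p y) ↔ ∀ D E : Der F, D x * E y = E x * D y := by
  unfold Par
  simp only [dlog_cc]
  refine forall_congr' fun D => forall_congr' fun E => ?_
  rw [div_mul_div_comm, div_mul_div_comm, div_left_inj' (mul_ne_zero hx hy)]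

theorem par_one_sub {f : F} (hf : f ≠ 0) (hf1 : 1 - f ≠ 0) : Par p (cc p f) (cc p (1 - f)) := by
  rw [par_cc_iff p hf hf1]
  intro D E
  rw [map_sub, map_sub, D.map_one_eq_zero, E.map_one_eq_zero]
  ring

theorem par_of_steinberg {a b : KOne F p}
    (h : TensorProduct.tmul (ZMod p) a b ∈ steinberg F p) : Par p a b := by
  intro D E
  let _ : Algebra (ZMod p) F := ZMod.algebra F p
  let d : KOne F p →ₗ[ZMod p] F := (dlog p D).toZModLinearMap p
  let e : KOne F p →ₗ[ZMod p] F := (dlog p E).toZModLinearMap p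
  let φ : TensorProduct (ZMod p) (KOne F p) (KOne F p) →ₗ[ZMod p] F :=
    (LinearMap.mul' (ZMod p) F).comp (TensorProduct.map d e) -
      (LinearMap.mul' (ZMod p) F).comp (TensorProduct.map e d)
  have hφ : ∀ a b : KOne F p, φ (TensorProduct.tmul (ZMod p) a b) =
      dlog p D a * dlog p E b - dlog p E a * dlog p D b := by
    intro a b
    simp [φ, d, e]
  have hle : steinberg F p ≤ LinearMap.ker φ := by
    rw [steinberg, Submodule.span_le]
    rintro _ ⟨f, hf, hf1, rfl⟩
    rw [SetLike.mem_coe, LinearMap.mem_ker, hφ, ← cc_mk0, ← cc_mk0, sub_eq_zero]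
    exact par_one_sub p hf hf1 D E
  have := hle h
  rwa [LinearMap.mem_ker, hφ, sub_eq_zero] at this

theorem mem_adj_of_par {x y : F} (hx : x ∉ pw F p) (hy : y ≠ 0) (h : Par p (cc p x) (cc p y)) :
    y ∈ adj (pw F p) x := by
  have hx0 : x ≠ 0 := fun h => hx (h ▸ zero_mem _)
  rw [par_cc_iff p hx0 hy] at h
  obtain ⟨E, -, hE⟩ := exists_der p le_rfl hx
  apply mem_adj_of_der p
  intro D hD
  have := h D E
  rw [hD, hE] at this
  simpa using this.symm

theorem par_of_mem_adj {x y : F} (hx : x ≠ 0) (hy : y ≠ 0) (h : y ∈ adj (pw F p) x) :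
    Par p (cc p x) (cc p y) := by
  rw [par_cc_iff p hx hy]
  intro D E
  have h1 : (D x • E - E x • D) x = 0 := by
    simp only [Derivation.sub_apply, Derivation.smul_apply, smul_eq_mul]
    ring
  have h2 := der_adj p _ h1 h
  simp only [Derivation.sub_apply, Derivation.smul_apply, smul_eq_mul] at h2
  exact sub_eq_zero.1 h2

/-- `p`-independence of a pair of elements. -/
def Ind (x y : F) : Prop := x ∉ pw F p ∧ y ∉ adj (pw F p) x

theorem Ind.left_ne {x y : F} (h : Ind p x y) : x ≠ 0 := fun h0 => h.1 (h0 ▸ zero_mem _)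

theorem Ind.right_ne {x y : F} (h : Ind p x y) : y ≠ 0 := fun h0 => h.2 (h0 ▸ zero_mem _)

theorem Ind.right_not_mem {x y : F} (h : Ind p x y) : y ∉ pw F p := fun h0 => h.2 (le_adj _ _ h0)

theorem Ind.symm {x y : F} (h : Ind p x y) : Ind p y x :=
  ⟨h.right_not_mem, fun h0 => h.2 (exchange p le_rfl h.1 h0)⟩

theorem ind_iff_not_par {x y : F} (hx : x ≠ 0) (hy : y ≠ 0) :
    Ind p x y ↔ ¬ Par p (cc p x) (cc p y) := by
  constructor
  · exact fun h hpar => h.2 (mem_adj_of_par p h.1 hy hpar)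
  · intro h
    refine ⟨fun hxp => h ?_, fun hxy => h (par_of_mem_adj p hx hy hxy)⟩
    rw [cc_pw p hxp]
    exact (par_zero_right p _).symm

theorem Ind.exists_der {x y : F} (h : Ind p x y) :
    ∃ D E : Der F, D x = 1 ∧ D y = 0 ∧ E x = 0 ∧ E y = 1 := by
  obtain ⟨E, hE, hEy⟩ := Crest.Agent.R9.exists_der p (le_adj _ x) h.2
  obtain ⟨D, hD, hDx⟩ := Crest.Agent.R9.exists_der p (le_adj _ y) (Ind.symm p h).2
  exact ⟨D, E, hDx, hD y (self_mem_adj _ _), hE x (self_mem_adj _ _), hEy⟩

theorem ind_of_der {x y : F} (D E : Der F) (h : D x * E y ≠ E x * D y) : Ind p x y := by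
  have hx : x ≠ 0 := by rintro rfl; simp at h
  have hy : y ≠ 0 := by rintro rfl; simp at h
  rw [ind_iff_not_par p hx hy, par_cc_iff p hx hy]
  exact fun h' => h (h' D E)

/-- Uniqueness lemma. -/
theorem unique_of_cc {B B' : F} (hB : B ∉ pw F p) (hB' : B' ∉ pw F p) {j j' : ZMod p}
    (hj : j ≠ 0) (h1 : j' • cc p B = j • cc p B') (h2 : j' • cc p (B + 1) = j • cc p (B' + 1)) :
    j = j' ∧ B = B' := by
  have hB0 : B ≠ 0 := fun h => hB (h ▸ zero_mem _)
  have hB0' : B' ≠ 0 := fun h => hB' (h ▸ zero_mem _)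
  have hB1 : B + 1 ≠ 0 := fun h => hB (by rw [eq_neg_of_add_eq_zero_left h]; exact neg_mem (one_mem _))
  have hB1' : B' + 1 ≠ 0 := fun h =>
    hB' (by rw [eq_neg_of_add_eq_zero_left h]; exact neg_mem (one_mem _))
  have hcast : ∀ i i' : ZMod p, (i.val : F) = (i'.val : F) → i = i' := by
    intro i i' h
    rw [CharP.natCast_eq_natCast F p] at h
    rw [← ZMod.natCast_zmod_val i, ← ZMod.natCast_zmod_val i']
    exact (ZMod.natCast_eq_natCast_iff _ _ _).2 h
  have hj0 : (j.val : F) ≠ 0 := fun h => hj (hcast j 0 (by simpa using h))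
  obtain ⟨D, -, hD⟩ := exists_der p le_rfl hB'
  have e1 := congrArg (dlog p D) h1
  have e2 := congrArg (dlog p D) h2
  rw [dlog_smul, dlog_smul, dlog_cc, dlog_cc, hD] at e1
  rw [dlog_smul, dlog_smul, dlog_cc, dlog_cc, map_add, map_add, hD, D.map_one_eq_zero] at e2
  field_simp at e1 e2
  have hBB : B = B' := by
    apply mul_left_cancel₀ hj0
    have h3 : (j'.val : F) * D B = j.val := by linear_combination e2 - e1
    rw [h3] at e1
    linear_combination -e1
  subst hBB
  refine ⟨hcast _ _ ?_, rfl⟩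
  rw [hD] at e1
  apply mul_left_cancel₀ hB0
  linear_combination -e1

end Crest.Agent.R9
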