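import Crest.Agent.R9.Der

/-!
Two facts on finitely generated field extensions in characteristic `p`.
-/

set_option autoImplicit false
set_option linter.unusedSectionVars false

namespace Crest.Agent.R9

variable {K : Type*} [Field K] (p : ℕ) [hp : Fact p.Prime] [CharP K p]

omit hp [CharP K p] in
theorem essFiniteType_of_closure (k : Subfield K)
    (hK : ∃ s : Finset K, Subfield.closure ((k : Set K) ∪ (s : Set K)) = ⊤) :
    Algebra.EssFiniteType k K := by
  rw [← IntermediateField.fg_top_iff]
  obtain ⟨s, hs⟩ := hK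
  refine ⟨s, ?_⟩
  apply IntermediateField.toSubfield_injective
  rw [IntermediateField.adjoin_toSubfield, IntermediateField.top_toSubfield, ← hs]
  congr 2
  ext x
  simp only [Set.mem_range, SetLike.mem_coe]
  exact ⟨fun ⟨a, ha⟩ => ha ▸ a.2, fun hx => ⟨⟨x, hx⟩, rfl⟩⟩

theorem exists_not_mem_adj (k : Subfield K) [Algebra.EssFiniteType k K]
    (hK2 : 2 ≤ Algebra.trdeg k K) (z : K) : ∃ y, y ∉ adj (pw K p) z := by
  by_contra hcon
  push Not at hcon
  let k' := IntermediateField.adjoin k {z}
  have : Algebra.EssFiniteType k' K := Algebra.EssFiniteType.of_comp k k' K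
  have hz : KaehlerDifferential.D k' K z = 0 :=
    (KaehlerDifferential.D k' K).map_algebraMap
      (⟨z, IntermediateField.mem_adjoin_simple_self k z⟩ : k')
  have hD : ∀ y, KaehlerDifferential.D k' K y = 0 := fun y => der_adj p _ hz (hcon y)
  have : Algebra.FormallyUnramified k' K := by
    constructor
    have h1 := KaehlerDifferential.span_range_derivation k' K
    have h2 : (⊤ : Submodule K Ω[K⁄k']) = ⊥ := by
      rw [← h1, Submodule.span_eq_bot]
      rintro _ ⟨y, rfl⟩
      exact hD y
    exact (Submodule.subsingleton_iff K).1 (subsingleton_of_top_le_bot h2.le)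
  have hsep : Algebra.IsSeparable k' K := Algebra.FormallyUnramified.isSeparable k' K
  have halg : Algebra.IsAlgebraic k' K := inferInstance
  have halg' : Algebra.IsAlgebraic (Algebra.adjoin k ({z} : Set K)) K :=
    IntermediateField.isAlgebraic_adjoin_iff_top.1 halg
  have hle := Algebra.IsAlgebraic.trdeg_le_cardinalMk k ({z} : Set K)
  rw [Cardinal.mk_singleton] at hle
  exact absurd (hK2.trans hle) (by norm_num)

theorem mem_of_forall_pow (k : Subfield K) [IsAlgClosed k] [Algebra.EssFiniteType k K] {t : K}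
    (ht : ∀ n : ℕ, ∃ s : K, s ^ p ^ n = t) : t ∈ k := by
  classical
  by_contra htk
  have htr : Transcendental k t := by
    intro halg
    have := minpoly.mem_range_of_degree_eq_one k t
      (IsAlgClosed.degree_eq_one_of_irreducible k (minpoly.irreducible halg.isIntegral))
    obtain ⟨a, rfl⟩ := this
    exact htk a.2
  have hind : AlgebraicIndepOn k id ({t} : Set K) :=
    (algebraicIndependent_singleton_iff (⟨t, rfl⟩ : ({t} : Set K))).2 htr
  obtain ⟨T, hT, hB⟩ := exists_isTranscendenceBasis_superset hind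
  have htT : t ∈ T := hT rfl
  let E := IntermediateField.adjoin k (Set.range ((↑) : T → K))
  have halg : Algebra.IsAlgebraic E K := hB.isAlgebraic_field
  have : Algebra.EssFiniteType E K := Algebra.EssFiniteType.of_comp k E K
  have hfin : Module.Finite E K := Algebra.finite_of_essFiniteType_of_isAlgebraic
  have htE : t ∈ E := IntermediateField.subset_adjoin _ _ ⟨⟨t, htT⟩, rfl⟩
  obtain ⟨s, hs⟩ := ht (Module.finrank E K)
  have : ExpChar E p := ExpChar.prime hp.out
  have h1 : (minpoly E s).natSepDegree = 1 :=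
    (minpoly.natSepDegree_eq_one_iff_pow_mem p).2 ⟨_, ⟨t, htE⟩, hs.symm⟩
  obtain ⟨m, y, hmin⟩ := (minpoly.natSepDegree_eq_one_iff_eq_X_pow_sub_C p).1 h1
  have hdeg : p ^ m ≤ Module.finrank E K := by
    have := minpoly.natDegree_le (A := E) s
    rwa [hmin, Polynomial.natDegree_X_pow_sub_C] at this
  have hm : m < Module.finrank E K := (Nat.lt_pow_self hp.out.one_lt).trans_le hdeg
  have hsy : s ^ p ^ m = (y : K) := by
    have := minpoly.aeval E s
    rw [hmin] at this
    simp only [map_sub, map_pow, Polynomial.aeval_X, Polynomial.aeval_C] at this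
    exact sub_eq_zero.1 this
  obtain ⟨r, hr⟩ := Nat.exists_eq_add_of_lt hm
  have hw : (y : K) ^ p ^ r ∈ E := pow_mem y.2 _
  have hwt : ((y : K) ^ p ^ r) ^ p = t := by
    rw [← hs, hr, ← hsy, ← pow_mul, ← pow_mul, pow_succ, pow_add, mul_assoc]
  obtain ⟨f, g, hfg⟩ := (IntermediateField.mem_adjoin_range_iff k _ _).1 hw
  have ht0 : t ≠ 0 := fun h => htk (h ▸ zero_mem _)
  have hg0 : MvPolynomial.aeval ((↑) : T → K) g ≠ 0 := by
    intro h
    rw [hfg, h, div_zero, zero_pow hp.out.ne_zero] at hwt
    exact ht0 hwt.symm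
  have heq : MvPolynomial.X (⟨t, htT⟩ : T) * g ^ p = f ^ p := by
    apply hB.1
    rw [map_mul, map_pow, map_pow, MvPolynomial.aeval_X]
    change t * _ = _
    rw [← hwt, hfg, div_pow]
    field_simp
  have hchar : ((p : ℕ) : MvPolynomial T k) = 0 := CharP.cast_eq_zero _ p
  have hd := congrArg (MvPolynomial.pderiv (⟨t, htT⟩ : T)) heq
  rw [Derivation.leibniz, Derivation.leibniz_pow, Derivation.leibniz_pow, MvPolynomial.pderiv_X_self,
    nsmul_eq_mul, nsmul_eq_mul, hchar] at hd
  simp only [zero_mul, mul_zero, smul_eq_mul, mul_one, zero_add] at hd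
  apply hg0
  rw [pow_eq_zero_iff hp.out.ne_zero] at hd
  rw [hd, map_zero]

end Crest.Agent.R9
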