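import Crest.Agent.R9.Der

/-!
The functional equation for logarithmic derivatives in characteristic `p`.
-/

set_option autoImplicit false

namespace Crest.Agent.R9

variable {L : Type*} [Field L] (p : ℕ) [hp : Fact p.Prime] [CharP L p]

omit hp [CharP L p] in
theorem der_mul (D : Der L) (a b : L) : D (a * b) = a * D b + b * D a := by
  rw [D.leibniz]; simp

omit hp [CharP L p] in
theorem der_div (D : Der L) (a b : L) (hb : b ≠ 0) : D (a / b) = (b * D a - a * D b) / b ^ 2 := by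
  rw [D.leibniz_div]; simp only [smul_eq_mul]; field_simp

omit hp [CharP L p] in
theorem der_pow_eigen (D : Der L) {x c : L} (hx : D x = c * x) (n : ℕ) :
    D (x ^ n) = n * c * x ^ n := by
  induction n with
  | zero => simp
  | succ n ih => rw [pow_succ, der_mul, ih, hx]; push_cast; ring

theorem der_pw_mul (D : Der L) {a : L} (ha : a ∈ pw L p) (b : L) : D (a * b) = a * D b := by
  rw [der_mul, der_pw p D ha]; ring

/-- A derivation with `θ x = x` preserves the field generated by `x` over the `p`-th powers. -/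
theorem euler_mem_adj (θ : Der L) {x : L} (hx : θ x = x) {w : L} (hw : w ∈ adj (pw L p) x) :
    θ w ∈ adj (pw L p) x := by
  refine adj_induction p le_rfl x (C := fun w => θ w ∈ adj (pw L p) x) ?_ ?_ w hw
  · intro a ha n
    rw [der_pw_mul p θ ha, der_pow_eigen θ (c := 1) (by rw [hx, one_mul]) n]
    refine mul_mem (le_adj _ _ ha) (mul_mem (mul_mem (natCast_mem _ n) (one_mem _))
      (pow_mem (self_mem_adj _ _) n))
  · intro u v hu hv
    rw [map_add]
    exact add_mem hu hv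

theorem iterate_eigen (θ : Der L) {w μ : L} (hμ : θ μ = 0) (hw : θ w = μ * w) (m : ℕ) :
    (θ : L → L)^[m] w = μ ^ m * w := by
  induction m with
  | zero => simp
  | succ m ih =>
    rw [Function.iterate_succ_apply', ih, der_mul, hw, θ.leibniz_pow, hμ]
    simp only [smul_zero, mul_zero, add_zero]
    ring

omit hp [CharP L p] in
theorem iterate_add (θ : Der L) (u v : L) (m : ℕ) :
    (θ : L → L)^[m] (u + v) = (θ : L → L)^[m] u + (θ : L → L)^[m] v := by
  induction m with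
  | zero => simp
  | succ m ih => simp only [Function.iterate_succ_apply', ih, map_add]

theorem euler_iterate (θ : Der L) {x : L} (hx : θ x = x) {w : L} (hw : w ∈ adj (pw L p) x) :
    (θ : L → L)^[p] w = θ w := by
  refine adj_induction p le_rfl x (C := fun w => (θ : L → L)^[p] w = θ w) ?_ ?_ w hw
  · intro a ha n
    have h1 : θ (a * x ^ n) = n * (a * x ^ n) := by
      rw [der_pw_mul p θ ha, der_pow_eigen θ (c := 1) (by rw [hx, one_mul]) n]; ring
    rw [iterate_eigen θ (θ.map_natCast n) h1, h1]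
    have : (n : L) ^ p = n := (Subfield.mem_bot_iff_pow_eq_self L p).1 (natCast_mem _ n)
    rw [this]
  · intro u v hu hv
    rw [iterate_add, hu, hv, map_add]

/-- An element of the field generated by `x` killed by a derivation not killing `x` is a `p`-th
power. -/
theorem mem_pw_of_adj (θ : Der L) {x : L} (hx : θ x ≠ 0) {w : L} (hw : w ∈ adj (pw L p) x)
    (h0 : θ w = 0) : w ∈ pw L p := by
  apply mem_pw_of_der p
  intro D
  have h1 : (D - (D x / θ x) • θ) x = 0 := by
    simp only [Derivation.sub_apply, Derivation.smul_apply, smul_eq_mul]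
    field_simp
    ring
  have h2 := der_adj p _ h1 hw
  simpa [Derivation.sub_apply, Derivation.smul_apply, h0] using h2

theorem exists_natCast_of_pow_eq {μ : L} (h : μ ^ p = μ) : ∃ i : ℕ, μ = i := by
  have h1 : μ ∈ (⊥ : Subfield L) := (Subfield.mem_bot_iff_pow_eq_self L p).2 h
  have h2 : (⊥ : Subfield L) ≤ (ZMod.castHom (dvd_refl p) L).fieldRange := bot_le
  obtain ⟨z, hz⟩ := RingHom.mem_fieldRange.1 (h2 h1)
  refine ⟨z.val, ?_⟩
  rw [← hz, ZMod.castHom_apply, ZMod.natCast_val]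

/-- Eigenvectors of the Euler derivation. -/
theorem eigen (θ : Der L) {x : L} (hx : θ x = x) (hx0 : x ≠ 0) {w μ : L}
    (hw : w ∈ adj (pw L p) x) (hw0 : w ≠ 0) (hμ : μ ∈ pw L p) (h : θ w = μ * w) :
    ∃ i : ℕ, μ = i ∧ w / x ^ i ∈ pw L p := by
  have h1 := iterate_eigen θ (der_pw p θ hμ) h p
  rw [euler_iterate p θ hx hw, h] at h1
  have h2 : μ ^ p = μ := (mul_right_cancel₀ hw0 h1).symm
  obtain ⟨i, rfl⟩ := exists_natCast_of_pow_eq p h2
  refine ⟨i, rfl, mem_pw_of_adj p θ (x := x) (by rwa [hx])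
    (div_mem hw (pow_mem (self_mem_adj _ _) i)) ?_⟩
  rw [der_div θ _ _ (pow_ne_zero i hx0), h, der_pow_eigen θ (c := 1) (by rw [hx, one_mul]) i]
  ring

/-- One half of the conclusion of the functional equation. -/
theorem half (θ : Der L) {X P μ : L} (hX : θ X = X) (hX0 : X ≠ 0) (hP : P ∈ adj (pw L p) X)
    (hP0 : P ≠ 0) (hnd : ∀ i : ℕ, P / X ^ i ∉ pw L p) (hμ : μ ∈ pw L p)
    (h : θ (θ P / P) = μ * ((θ P / P) * (θ P / P - 1))) :
    ∃ i : ℕ, μ = i ∧ μ ≠ 0 ∧ ∃ b ∈ pw L p, b ≠ 0 ∧ (X ^ i)⁻¹ + b ≠ 0 ∧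
      P ^ i * ((X ^ i)⁻¹ + b) ∈ pw L p := by
  set u := θ P / P with hu
  have huP : θ P = u * P := by rw [hu]; field_simp
  have hum : u ∈ adj (pw L p) X := div_mem (euler_mem_adj p θ hX hP) hP
  have hupw : u ∉ pw L p := by
    intro hupw
    obtain ⟨i, -, hi⟩ := eigen p θ hX hX0 hP hP0 hupw huP
    exact hnd i hi
  have hu0 : u ≠ 0 := fun h => hupw (h ▸ zero_mem _)
  have hu1 : u - 1 ≠ 0 := fun h => hupw (by rw [sub_eq_zero.1 h]; exact one_mem _)
  have hW : θ (1 - 1 / u) = μ * (1 - 1 / u) := by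
    rw [map_sub, der_div θ _ _ hu0, h, θ.map_one_eq_zero]
    field_simp
    ring
  have hW0 : 1 - 1 / u ≠ 0 := by
    have : 1 - 1 / u = (u - 1) / u := by field_simp
    rw [this]
    exact div_ne_zero hu1 hu0
  obtain ⟨i, hi, hb⟩ := eigen p θ hX hX0 (sub_mem (one_mem _) (div_mem (one_mem _) hum)) hW0 hμ hW
  have hXi : X ^ i ≠ 0 := pow_ne_zero i hX0
  have hθXi : θ (X ^ i) = i * X ^ i := by
    rw [der_pow_eigen θ (c := 1) (by rw [hX, one_mul]) i]; ring
  have hsum : (X ^ i)⁻¹ + -((1 - 1 / u) / X ^ i) = 1 / (u * X ^ i) := by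
    field_simp
    ring
  refine ⟨i, hi, ?_, -((1 - 1 / u) / X ^ i), neg_mem hb, neg_ne_zero.2 (div_ne_zero hW0 hXi), ?_, ?_⟩
  · intro hμ0
    have h1 : 1 - 1 / u ∈ pw L p := mem_pw_of_adj p θ (x := X) (by rwa [hX])
      (sub_mem (one_mem _) (div_mem (one_mem _) hum)) (by rw [hW, hμ0, zero_mul])
    apply hupw
    have : u = (1 - (1 - 1 / u))⁻¹ := by field_simp; ring
    rw [this]
    exact inv_mem (sub_mem (one_mem _) h1)
  · rw [hsum]
    exact div_ne_zero one_ne_zero (mul_ne_zero hu0 hXi)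
  · rw [hsum]
    refine mem_pw_of_adj p θ (x := X) (by rwa [hX]) (mul_mem (pow_mem hP i)
      (div_mem (one_mem _) (mul_mem hum (pow_mem (self_mem_adj _ _) i)))) ?_
    rw [der_mul, der_div θ _ _ (mul_ne_zero hu0 hXi), der_mul, h, hθXi, der_pow_eigen θ huP i,
      θ.map_one_eq_zero, hi]
    field_simp
    ring

/-- The functional equation. -/
theorem funceq (θ η : Der L) {X Y P Q Z : L} (hθX : θ X = X) (hθY : θ Y = 0) (hηX : η X = 0)
    (hηY : η Y = Y) (hX0 : X ≠ 0) (hY0 : Y ≠ 0) (hP0 : P ≠ 0) (hQ0 : Q ≠ 0) (hZ0 : Z ≠ 0)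
    (hP : P ∈ adj (pw L p) X) (hQ : Q ∈ adj (pw L p) Y) (hZ : Z / Y ∈ adj (pw L p) (X / Y))
    (hZQ : θ (P / Q) * η (Z / Q) = η (P / Q) * θ (Z / Q))
    (hndP : ∀ i : ℕ, P / X ^ i ∉ pw L p) (hndQ : ∀ i : ℕ, Q / Y ^ i ∉ pw L p) :
    ∃ μ ∈ pw L p, θ (θ P / P) = μ * ((θ P / P) * (θ P / P - 1)) ∧
      η (η Q / Q) = μ * ((η Q / Q) * (η Q / Q - 1)) := by
  set u := θ P / P with hu
  set v := η Q / Q with hv
  set w := θ Z / Z with hw
  have huP : θ P = u * P := by rw [hu]; field_simp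
  have hvQ : η Q = v * Q := by rw [hv]; field_simp
  have hwZ : θ Z = w * Z := by rw [hw]; field_simp
  clear_value u v w
  have hum : u ∈ adj (pw L p) X := hu ▸ div_mem (euler_mem_adj p θ hθX hP) hP
  have hvm : v ∈ adj (pw L p) Y := hv ▸ div_mem (euler_mem_adj p η hηY hQ) hQ
  have hupw : u ∉ pw L p := by
    intro hupw
    obtain ⟨i, -, hi⟩ := eigen p θ hθX hX0 hP hP0 hupw huP
    exact hndP i hi
  have hvpw : v ∉ pw L p := by
    intro hvpw
    obtain ⟨i, -, hi⟩ := eigen p η hηY hY0 hQ hQ0 hvpw hvQ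
    exact hndQ i hi
  have hu0 : u ≠ 0 := fun h => hupw (h ▸ zero_mem _)
  have hu1 : u - 1 ≠ 0 := fun h => hupw (by rw [sub_eq_zero.1 h]; exact one_mem _)
  have hv0 : v ≠ 0 := fun h => hvpw (h ▸ zero_mem _)
  have hv1 : v - 1 ≠ 0 := fun h => hvpw (by rw [sub_eq_zero.1 h]; exact one_mem _)
  have hηP : η P = 0 := der_adj p η hηX hP
  have hθQ : θ Q = 0 := der_adj p θ hθY hQ
  have hηu : η u = 0 := der_adj p η hηX hum
  have hθv : θ v = 0 := der_adj p θ hθY hvm
  have hθXY : θ (X / Y) = X / Y := by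
    rw [der_div θ _ _ hY0, hθX, hθY]; field_simp; ring
  have hsumXY : (θ + η) (X / Y) = 0 := by
    rw [Derivation.add_apply, hθXY, der_div η _ _ hY0, hηX, hηY]; field_simp; ring
  have hηZ : η Z = (1 - w) * Z := by
    have h1 := der_adj p (θ + η) hsumXY hZ
    rw [Derivation.add_apply, der_div θ _ _ hY0, der_div η _ _ hY0, hθY, hηY, hwZ] at h1
    field_simp at h1
    apply mul_left_cancel₀ hY0
    linear_combination h1
  have hwm : w ∈ adj (pw L p) (X / Y) := by
    have h1 := div_mem (euler_mem_adj p θ hθXY hZ) hZ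
    have h2 : θ (Z / Y) / (Z / Y) = w := by
      rw [der_div θ _ _ hY0, hθY, hwZ]; field_simp; ring
    rwa [h2] at h1
  have hsumw : θ w + η w = 0 := der_adj p (θ + η) hsumXY hwm
  have hrel : w * (v - u) = u * (v - 1) := by
    rw [der_div θ _ _ hQ0, der_div η _ _ hQ0, der_div η _ _ hQ0, der_div θ _ _ hQ0, hθQ, hηP,
      huP, hvQ, hηZ, hwZ] at hZQ
    field_simp at hZQ
    apply mul_left_cancel₀ (mul_ne_zero hP0 hQ0)
    linear_combination hZQ
  have hθrel := congrArg θ hrel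
  have hηrel := congrArg η hrel
  rw [der_mul, der_mul, map_sub, map_sub, hθv, θ.map_one_eq_zero] at hθrel
  rw [der_mul, der_mul, map_sub, map_sub, hηu, η.map_one_eq_zero] at hηrel
  have hkey : η v * (u * (u - 1)) = θ u * (v * (v - 1)) := by
    have h1 : w * (η v - θ u) = θ u * (v - 1) + u * η v := by
      linear_combination hθrel + hηrel - (v - u) * hsumw
    linear_combination (v - u) * h1 - (η v - θ u) * hrel
  have hμu : θ u / (u * (u - 1)) ∈ adj (pw L p) X :=
    div_mem (euler_mem_adj p θ hθX hum) (mul_mem hum (sub_mem hum (one_mem _)))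
  have hμv : η v / (v * (v - 1)) ∈ adj (pw L p) Y :=
    div_mem (euler_mem_adj p η hηY hvm) (mul_mem hvm (sub_mem hvm (one_mem _)))
  have hμeq : θ u / (u * (u - 1)) = η v / (v * (v - 1)) := by
    field_simp
    linear_combination (-1 : L) * hkey
  refine ⟨θ u / (u * (u - 1)), mem_pw_of_adj p θ (x := X) (by rwa [hθX]) hμu ?_, ?_, ?_⟩
  · rw [hμeq]
    exact der_adj p θ hθY hμv
  · field_simp
  · rw [hμeq]
    field_simp

end Crest.Agent.R9
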