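import Crest.Agent.R9.Dlog

/-!
A compatible isomorphism preserves `p`-dependence, and after scaling it carries the pair
`[x], [x + 1]` to a pair `[B], [B + 1]`.
-/

set_option autoImplicit false
set_option linter.unusedSectionVars false

open Crest.NumberTheoryR.MilnorK

namespace Crest.Agent.R9

variable {K L : Type*} [Field K] [Field L] (p : ℕ) [hp : Fact p.Prime] [CharP K p] [CharP L p]

theorem cc_zero : cc p (0 : K) = 0 := by simp [cc]

theorem par_map (Θ : KOne K p ≃ₗ[ZMod p] KOne L p)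
    (hSt : ∀ f : K, f ≠ 0 → 1 - f ≠ 0 → Par p (Θ (cc p f)) (Θ (cc p (1 - f))))
    {a b : KOne K p} (h : Par p a b) : Par p (Θ a) (Θ b) := by
  obtain ⟨x, hx0, rfl⟩ := cc_surj p a
  obtain ⟨y, hy0, rfl⟩ := cc_surj p b
  by_cases hx : x ∈ pw K p
  · rw [cc_pw p hx, map_zero]
    exact (par_zero_right p _).symm
  have hy := mem_adj_of_par p hx hy0 h
  have h0 : Par p (Θ (cc p x)) (Θ (cc p (0 : K))) := by
    rw [cc_zero, map_zero]; exact par_zero_right p _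
  have hmul : ∀ u v : K, Par p (Θ (cc p x)) (Θ (cc p u)) → Par p (Θ (cc p x)) (Θ (cc p v)) →
      Par p (Θ (cc p x)) (Θ (cc p (u * v))) := by
    intro u v hu hv
    by_cases hu0 : u = 0
    · rw [hu0, zero_mul]; exact h0
    by_cases hv0 : v = 0
    · rw [hv0, mul_zero]; exact h0
    rw [cc_mul p hu0 hv0, map_add]
    exact hu.add_right p hv
  have hneg : ∀ u : K, Par p (Θ (cc p x)) (Θ (cc p u)) → Par p (Θ (cc p x)) (Θ (cc p (-u))) := by
    intro u hu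
    by_cases hu0 : u = 0
    · rw [hu0, neg_zero]; exact h0
    rwa [cc_neg p hu0]
  have hinv : ∀ u : K, Par p (Θ (cc p x)) (Θ (cc p u)) → Par p (Θ (cc p x)) (Θ (cc p u⁻¹)) := by
    intro u hu
    by_cases hu0 : u = 0
    · rw [hu0, inv_zero]; exact h0
    rw [cc_inv p hu0, map_neg]
    exact hu.neg_right p
  have hpw : ∀ u ∈ pw K p, Par p (Θ (cc p x)) (Θ (cc p u)) := by
    intro u hu
    rw [cc_pw p hu, map_zero]
    exact par_zero_right p _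
  have hsub : ∀ u : K, Par p (Θ (cc p x)) (Θ (cc p u)) →
      Par p (Θ (cc p x)) (Θ (cc p (1 - u))) := by
    intro u hu
    by_cases hup : u ∈ pw K p
    · exact hpw _ (sub_mem (one_mem _) hup)
    have hu0 : u ≠ 0 := fun h => hup (h ▸ zero_mem _)
    have hu1 : 1 - u ≠ 0 := fun h => hup (by rw [← sub_eq_zero.1 h]; exact one_mem _)
    refine hu.trans p (hSt u hu0 hu1) ?_
    rw [Ne, map_eq_zero_iff _ Θ.injective, cc_eq_zero_iff p hu0]
    exact hup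
  let H : Subfield K :=
    { carrier := {u | Par p (Θ (cc p x)) (Θ (cc p u))}
      mul_mem' := fun {u v} hu hv => hmul u v hu hv
      one_mem' := hpw 1 (one_mem _)
      add_mem' := fun {u v} hu hv => by
        by_cases hu0 : u = 0
        · rw [hu0, zero_add]; exact hv
        have : u + v = u * (1 - (-v) * u⁻¹) := by field_simp; ring
        rw [this]
        exact hmul _ _ hu (hsub _ (hmul _ _ (hneg _ hv) (hinv _ hu)))
      zero_mem' := h0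
      neg_mem' := fun {u} hu => hneg u hu
      inv_mem' := fun u hu => hinv u hu }
  have hle : adj (pw K p) x ≤ H := adj_le (fun u hu => hpw u hu) (par_self p _)
  exact hle hy

/-- `j • Θ` carries `[x], [x + 1]` to `[B], [B + 1]`. -/
def Good (Θ : KOne K p ≃ₗ[ZMod p] KOne L p) (j : ZMod p) (x : K) (B : L) : Prop :=
  B ∉ pw L p ∧ j • Θ (cc p x) = cc p B ∧ j • Θ (cc p (x + 1)) = cc p (B + 1)

theorem Good.unique {Θ : KOne K p ≃ₗ[ZMod p] KOne L p} {j j' : ZMod p} {x : K} {B B' : L}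
    (hj : j ≠ 0) (h : Good p Θ j x B) (h' : Good p Θ j' x B') : j = j' ∧ B = B' := by
  refine unique_of_cc p h.1 h'.1 hj ?_ ?_
  · rw [← h.2.1, ← h'.2.1, smul_comm]
  · rw [← h.2.2, ← h'.2.2, smul_comm]

theorem not_line {x : K} (hx : x ∉ pw K p) (i : ℕ) : cc p (x + 1) ≠ i • cc p x := by
  intro h
  have hx0 : x ≠ 0 := fun h => hx (h ▸ zero_mem _)
  have hx1 : x + 1 ≠ 0 := fun h =>
    hx (by rw [eq_neg_of_add_eq_zero_left h]; exact neg_mem (one_mem _))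
  obtain ⟨D, -, hD⟩ := exists_der p le_rfl hx
  have e := congrArg (dlog p D) h
  rw [map_nsmul, dlog_cc, dlog_cc, map_add, hD, D.map_one_eq_zero, nsmul_eq_mul] at e
  field_simp at e
  have e1 : x = (x + 1) * i := by linear_combination e
  have e2 := congrArg D e1
  rw [der_mul, map_add, hD, D.map_natCast, D.map_one_eq_zero] at e2
  have e3 : (i : K) = 1 := by linear_combination -e2
  rw [e3] at e1
  simp at e1

theorem good_of_half (Θ : KOne K p ≃ₗ[ZMod p] KOne L p) {x : K} {X P μ : L} (hx : x ∉ pw K p)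
    (hX0 : X ≠ 0) (hP0 : P ≠ 0) (hX : cc p X = Θ (cc p x)) (hP : cc p P = Θ (cc p (x + 1)))
    {i : ℕ} (hi : μ = i) (hμ : μ ≠ 0) {b : L} (hb : b ∈ pw L p) (hb0 : b ≠ 0)
    (hne : (X ^ i)⁻¹ + b ≠ 0) (hmem : P ^ i * ((X ^ i)⁻¹ + b) ∈ pw L p) :
    (-(i : ZMod p)) ≠ 0 ∧ ∃ B, Good p Θ (-(i : ZMod p)) x B := by
  have hx0 : x ≠ 0 := fun h => hx (h ▸ zero_mem _)
  have hi0 : (i : ZMod p) ≠ 0 := by
    intro h
    rw [ZMod.natCast_eq_zero_iff] at h
    exact hμ (hi.trans ((CharP.cast_eq_zero_iff L p i).2 h))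
  have hXi : X ^ i ≠ 0 := pow_ne_zero i hX0
  have h1 : (-(i : ZMod p)) • Θ (cc p x) = cc p ((X ^ i)⁻¹ / b) := by
    rw [cc_div p (inv_ne_zero hXi) hb0, cc_pw p hb, sub_zero, cc_inv p hXi, cc_pow p hX0, hX,
      neg_smul, Nat.cast_smul_eq_nsmul]
  refine ⟨neg_ne_zero.2 hi0, (X ^ i)⁻¹ / b, ?_, h1, ?_⟩
  · intro h
    rw [cc_pw p h, smul_eq_zero_iff_right (neg_ne_zero.2 hi0), map_eq_zero_iff _ Θ.injective,
      cc_eq_zero_iff p hx0] at h1
    exact hx h1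
  · have h2 : (X ^ i)⁻¹ / b + 1 = ((X ^ i)⁻¹ + b) / b := by field_simp
    have h3 := cc_pw p hmem
    rw [cc_mul p (pow_ne_zero i hP0) hne, cc_pow p hP0, hP] at h3
    rw [h2, cc_div p hne hb0, cc_pw p hb, sub_zero, neg_smul, Nat.cast_smul_eq_nsmul]
    exact neg_eq_of_add_eq_zero_right h3

theorem exists_good_pair (Θ : KOne K p ≃ₗ[ZMod p] KOne L p)
    (hΘ : ∀ a b, Par p a b ↔ Par p (Θ a) (Θ b)) {x y : K} (hxy : Ind p x y) :
    ∃ j : ZMod p, j ≠ 0 ∧ (∃ B, Good p Θ j x B) ∧ ∃ B, Good p Θ j y B := by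
  have hx0 := hxy.left_ne
  have hy0 := hxy.right_ne
  have hx := hxy.1
  have hy := hxy.right_not_mem
  have hx1 : x + 1 ≠ 0 := fun h =>
    hx (by rw [eq_neg_of_add_eq_zero_left h]; exact neg_mem (one_mem _))
  have hy1 : y + 1 ≠ 0 := fun h =>
    hy (by rw [eq_neg_of_add_eq_zero_left h]; exact neg_mem (one_mem _))
  have hxy0 : x - y ≠ 0 := fun h => hxy.2 (by rw [← sub_eq_zero.1 h]; exact self_mem_adj _ _)
  obtain ⟨X, hX0, hX⟩ := cc_surj p (Θ (cc p x))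
  obtain ⟨Y, hY0, hY⟩ := cc_surj p (Θ (cc p y))
  obtain ⟨P, hP0, hP⟩ := cc_surj p (Θ (cc p (x + 1)))
  obtain ⟨Q, hQ0, hQ⟩ := cc_surj p (Θ (cc p (y + 1)))
  obtain ⟨Z, hZ0, hZ⟩ := cc_surj p (Θ (cc p (x - y)))
  have hXY : Ind p X Y := by
    rw [ind_iff_not_par p hX0 hY0, hX, hY, ← hΘ, ← ind_iff_not_par p hx0 hy0]
    exact hxy
  obtain ⟨D, E, hDX, hDY, hEX, hEY⟩ := hXY.exists_der
  have hθX : (X • D) X = X := by simp [hDX]
  have hθY : (X • D) Y = 0 := by simp [hDY]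
  have hηX : (Y • E) X = 0 := by simp [hEX]
  have hηY : (Y • E) Y = Y := by simp [hEY]
  have hPm : P ∈ adj (pw L p) X := by
    apply mem_adj_of_par p hXY.1 hP0
    rw [hX, hP, ← hΘ]
    exact par_of_mem_adj p hx0 hx1 (add_mem (self_mem_adj _ _) (one_mem _))
  have hQm : Q ∈ adj (pw L p) Y := by
    apply mem_adj_of_par p hXY.right_not_mem hQ0
    rw [hY, hQ, ← hΘ]
    exact par_of_mem_adj p hy0 hy1 (add_mem (self_mem_adj _ _) (one_mem _))
  have hXYp : X / Y ∉ pw L p := by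
    intro h
    apply hXY.symm.2
    have : X = X / Y * Y := by field_simp
    rw [this]
    exact mul_mem (le_adj _ _ h) (self_mem_adj _ _)
  have hZm : Z / Y ∈ adj (pw L p) (X / Y) := by
    apply mem_adj_of_par p hXYp (div_ne_zero hZ0 hY0)
    rw [cc_div p hX0 hY0, cc_div p hZ0 hY0, hX, hY, hZ, ← map_sub Θ, ← map_sub Θ, ← hΘ,
      ← cc_div p hx0 hy0, ← cc_div p hxy0 hy0]
    apply par_of_mem_adj p (div_ne_zero hx0 hy0) (div_ne_zero hxy0 hy0)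
    have : (x - y) / y = x / y - 1 := by field_simp
    rw [this]
    exact sub_mem (self_mem_adj _ _) (one_mem _)
  have hZQ : Par p (cc p (P / Q)) (cc p (Z / Q)) := by
    rw [cc_div p hP0 hQ0, cc_div p hZ0 hQ0, hP, hQ, hZ, ← map_sub Θ, ← map_sub Θ, ← hΘ,
      ← cc_div p hx1 hy1, ← cc_div p hxy0 hy1]
    apply par_of_mem_adj p (div_ne_zero hx1 hy1) (div_ne_zero hxy0 hy1)
    have : (x - y) / (y + 1) = (x + 1) / (y + 1) - 1 := by field_simp; ring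
    rw [this]
    exact sub_mem (self_mem_adj _ _) (one_mem _)
  rw [par_cc_iff p (div_ne_zero hP0 hQ0) (div_ne_zero hZ0 hQ0)] at hZQ
  have hndP : ∀ i : ℕ, P / X ^ i ∉ pw L p := by
    intro i h
    rw [← cc_eq_iff p hP0 (pow_ne_zero i hX0), cc_pow p hX0, hP, hX, ← map_nsmul] at h
    exact not_line p hx i (Θ.injective h)
  have hndQ : ∀ i : ℕ, Q / Y ^ i ∉ pw L p := by
    intro i h
    rw [← cc_eq_iff p hQ0 (pow_ne_zero i hY0), cc_pow p hY0, hQ, hY, ← map_nsmul] at h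
    exact not_line p hy i (Θ.injective h)
  obtain ⟨μ, hμ, h1, h2⟩ := funceq p (X • D) (Y • E) hθX hθY hηX hηY hX0 hY0 hP0 hQ0 hZ0 hPm hQm
    hZm (hZQ _ _) hndP hndQ
  obtain ⟨i, hi, hμ0, b, hb, hb0, hne, hmem⟩ := half p (X • D) hθX hX0 hPm hP0 hndP hμ h1
  obtain ⟨i', hi', -, b', hb', hb0', hne', hmem'⟩ := half p (Y • E) hηY hY0 hQm hQ0 hndQ hμ h2
  obtain ⟨hj, hB⟩ := good_of_half p Θ hx hX0 hP0 hX hP hi hμ0 hb hb0 hne hmem
  obtain ⟨-, hB'⟩ := good_of_half p Θ hy hY0 hQ0 hY hQ hi' hμ0 hb' hb0' hne' hmem'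
  have hii : (i' : ZMod p) = i := by
    rw [ZMod.natCast_eq_natCast_iff, ← CharP.natCast_eq_natCast L p, ← hi, ← hi']
  rw [hii] at hB'
  exact ⟨_, hj, hB, hB'⟩

theorem exists_good (Θ : KOne K p ≃ₗ[ZMod p] KOne L p)
    (hΘ : ∀ a b, Par p a b ↔ Par p (Θ a) (Θ b)) (hK : ∀ z : K, ∃ y, y ∉ adj (pw K p) z) :
    ∃ j : ZMod p, j ≠ 0 ∧ ∀ x : K, x ∉ pw K p → ∃ B, Good p Θ j x B := by
  obtain ⟨x₀, hx₀'⟩ := hK 0
  have hx₀ : x₀ ∉ pw K p := fun h => hx₀' (le_adj _ _ h)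
  obtain ⟨y₀, hy₀⟩ := hK x₀
  obtain ⟨j, hj, ⟨B₀, hB₀⟩, ⟨C₀, hC₀⟩⟩ := exists_good_pair p Θ hΘ (x := x₀) (y := y₀) ⟨hx₀, hy₀⟩
  refine ⟨j, hj, fun x hx => ?_⟩
  by_cases h : x ∈ adj (pw K p) x₀
  · have h1 : y₀ ∉ adj (pw K p) x := fun h' => hy₀ (adj_le (le_adj _ _) h h')
    obtain ⟨j', hj', hB, ⟨C, hC⟩⟩ := exists_good_pair p Θ hΘ (x := x) (y := y₀) ⟨hx, h1⟩
    rwa [(Good.unique p hj hC₀ hC).1]
  · obtain ⟨j', hj', ⟨B, hB⟩, hC⟩ := exists_good_pair p Θ hΘ (x := x₀) (y := x) ⟨hx₀, h⟩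
    rwa [(Good.unique p hj hB₀ hB).1]

end Crest.Agent.R9
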