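import Crest.Agent.R9.Good

/-!
Construction of the field homomorphism.
-/

set_option autoImplicit false
set_option linter.unusedSectionVars false

open Crest.NumberTheoryR.MilnorK

namespace Crest.Agent.R9

variable {K L : Type*} [Field K] [Field L] (p : ℕ) [hp : Fact p.Prime] [CharP K p] [CharP L p]

/-- The data from which the field homomorphism is built. -/
structure Pre (Ψ : KOne K p →+ KOne L p) (β : K → L) : Prop where
  par : ∀ a b, Par p (Ψ a) (Ψ b) → Par p a b
  not_mem : ∀ x, x ∉ pw K p → β x ∉ pw L p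
  cc_eq : ∀ x, x ∉ pw K p → Ψ (cc p x) = cc p (β x)
  cc_add_one : ∀ x, x ∉ pw K p → Ψ (cc p (x + 1)) = cc p (β x + 1)

variable {p}
variable {Ψ : KOne K p →+ KOne L p} {β : K → L}

theorem ne_zero_of_not_mem {x : K} (hx : x ∉ pw K p) : x ≠ 0 := fun h => hx (h ▸ zero_mem _)

theorem add_one_ne_zero_of_not_mem {x : K} (hx : x ∉ pw K p) : x + 1 ≠ 0 := fun h =>
  hx (by rw [eq_neg_of_add_eq_zero_left h]; exact neg_mem (one_mem _))

theorem not_mem_of_der {x : K} (D : Der K) (h : D x ≠ 0) : x ∉ pw K p :=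
  fun hx => h (der_pw p D hx)

theorem Pre.ind (h : Pre p Ψ β) {x y : K} (hxy : Ind p x y) : Ind p (β x) (β y) := by
  rw [ind_iff_not_par p (ne_zero_of_not_mem (h.not_mem x hxy.1))
    (ne_zero_of_not_mem (h.not_mem y hxy.right_not_mem)), ← h.cc_eq x hxy.1,
    ← h.cc_eq y hxy.right_not_mem]
  exact fun hpar => (ind_iff_not_par p hxy.left_ne hxy.right_ne).1 hxy (h.par _ _ hpar)

theorem Pre.line (h : Pre p Ψ β) {x y : K} {X Y : L} (hx : x ≠ 0) (hy : y ≠ 0)
    (hxy : x / y ∉ pw K p) (hX0 : X ≠ 0) (hY0 : Y ≠ 0) (hX : Ψ (cc p x) = cc p X)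
    (hY : Ψ (cc p y) = cc p Y) :
    ∃ s ∈ pw L p, s * X + Y ≠ 0 ∧ Ψ (cc p (x + y)) = cc p (s * X + Y) := by
  have hB := h.not_mem _ hxy
  have h1 : cc p (β (x / y)) = cc p (X / Y) := by
    rw [← h.cc_eq _ hxy, cc_div p hx hy, cc_div p hX0 hY0, map_sub Ψ, hX, hY]
  obtain ⟨s, hs, -, hsB⟩ := exists_of_cc_eq p (ne_zero_of_not_mem hB) (div_ne_zero hX0 hY0) h1
  have h2 : s * X + Y = Y * (β (x / y) + 1) := by rw [hsB]; field_simp
  have h3 : x + y = y * (x / y + 1) := by field_simp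
  refine ⟨s, hs, ?_, ?_⟩
  · rw [h2]
    exact mul_ne_zero hY0 (add_one_ne_zero_of_not_mem hB)
  · rw [h2, h3, cc_mul p hy (add_one_ne_zero_of_not_mem hxy),
      cc_mul p hY0 (add_one_ne_zero_of_not_mem hB), map_add Ψ, hY, h.cc_add_one _ hxy]

theorem lin_indep {X Y a b c : L} (hXY : Ind p X Y) (ha : a ∈ pw L p) (hb : b ∈ pw L p)
    (hc : c ∈ pw L p) (h : a + b * X + c * Y = 0) : a = 0 ∧ b = 0 ∧ c = 0 := by
  obtain ⟨D, E, hDX, hDY, hEX, hEY⟩ := hXY.exists_der
  have h1 := congrArg D h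
  have h2 := congrArg E h
  rw [map_add, map_add, der_pw_mul p D hb, der_pw_mul p D hc, der_pw p D ha, hDX, hDY,
    map_zero] at h1
  rw [map_add, map_add, der_pw_mul p E hb, der_pw_mul p E hc, der_pw p E ha, hEX, hEY,
    map_zero] at h2
  have hb0 : b = 0 := by linear_combination h1
  have hc0 : c = 0 := by linear_combination h2
  rw [hb0, hc0] at h
  exact ⟨by linear_combination h, hb0, hc0⟩

theorem Pre.add (h : Pre p Ψ β) {x y : K} (hxy : Ind p x y) : β (x + y) = β x + β y := by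
  have hXY := h.ind hxy
  have hx := hxy.1
  have hy := hxy.right_not_mem
  have hX := hXY.1
  have hY := hXY.right_not_mem
  obtain ⟨D, E, hDx, hDy, hEx, hEy⟩ := hxy.exists_der
  have hx0 := ne_zero_of_not_mem hx
  have hy0 := ne_zero_of_not_mem hy
  have hX0 := ne_zero_of_not_mem hX
  have hY0 := ne_zero_of_not_mem hY
  have hx1 := add_one_ne_zero_of_not_mem hx
  have hy1 := add_one_ne_zero_of_not_mem hy
  have hX1 := add_one_ne_zero_of_not_mem hX
  have hY1 := add_one_ne_zero_of_not_mem hY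
  have n1 : (x + 1) / y ∉ pw K p := not_mem_of_der D (by
    rw [der_div D _ _ hy0, map_add, hDx, hDy, D.map_one_eq_zero]; simp [hy0])
  have n2 : (y + 1) / x ∉ pw K p := not_mem_of_der E (by
    rw [der_div E _ _ hx0, map_add, hEx, hEy, E.map_one_eq_zero]; simp [hx0])
  have n3 : x / y ∉ pw K p := not_mem_of_der D (by
    rw [der_div D _ _ hy0, hDx, hDy]; simp [hy0])
  have n4 : x + y ∉ pw K p := not_mem_of_der D (by rw [map_add, hDx, hDy]; simp)
  obtain ⟨s, hs, hs0, e1⟩ := h.line hx1 hy0 n1 hX1 hY0 (h.cc_add_one x hx) (h.cc_eq y hy)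
  obtain ⟨s', hs', hs0', e2⟩ := h.line hy1 hx0 n2 hY1 hX0 (h.cc_add_one y hy) (h.cc_eq x hx)
  obtain ⟨r, hr, hr0, e3⟩ := h.line hx0 hy0 n3 hX0 hY0 (h.cc_eq x hx) (h.cc_eq y hy)
  have hB := h.not_mem _ n4
  have e4 := h.cc_eq _ n4
  have e5 := h.cc_add_one _ n4
  have q1 : y + 1 + x = x + 1 + y := by ring
  have q2 : x + y + 1 = x + 1 + y := by ring
  rw [q1, e1] at e2
  rw [q2, e1] at e5
  rw [e3] at e4
  obtain ⟨t, ht, -, f1⟩ := exists_of_cc_eq p hs0 hs0' e2
  obtain ⟨r', hr', -, f2⟩ := exists_of_cc_eq p (ne_zero_of_not_mem hB) hr0 e4.symm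
  obtain ⟨t', ht', -, f3⟩ := exists_of_cc_eq p (add_one_ne_zero_of_not_mem hB) hs0 e5.symm
  obtain ⟨g1, g2, g3⟩ := lin_indep hXY (a := s - t * s') (b := s - t) (c := 1 - t * s')
    (sub_mem hs (mul_mem ht hs')) (sub_mem hs ht) (sub_mem (one_mem _) (mul_mem ht hs'))
    (by linear_combination f1)
  have hs1 : s = 1 := by linear_combination g1 - g3
  rw [hs1, f2] at f3
  obtain ⟨k1, k2, k3⟩ := lin_indep hXY (a := 1 - t') (b := r' * r - t') (c := r' - t')
    (sub_mem (one_mem _) ht') (sub_mem (mul_mem hr' hr) ht') (sub_mem hr' ht')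
    (by linear_combination f3)
  rw [f2]
  linear_combination β x * (k2 - k1) + β y * (k3 - k1)

theorem Pre.mul (h : Pre p Ψ β) {x y : K} (hxy : Ind p x y) : β (x * y) = β x * β y := by
  have hXY := h.ind hxy
  have hx := hxy.1
  have hy := hxy.right_not_mem
  have hX := hXY.1
  have hY := hXY.right_not_mem
  obtain ⟨D, E, hDx, hDy, hEx, hEy⟩ := hxy.exists_der
  have hx0 := ne_zero_of_not_mem hx
  have hy0 := ne_zero_of_not_mem hy
  have hX0 := ne_zero_of_not_mem hX
  have hY0 := ne_zero_of_not_mem hY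
  have hx1 := add_one_ne_zero_of_not_mem hx
  have hy1 := add_one_ne_zero_of_not_mem hy
  have hX1 := add_one_ne_zero_of_not_mem hX
  have hY1 := add_one_ne_zero_of_not_mem hY
  have n1 : x * y ∉ pw K p := not_mem_of_der D (by rw [der_mul, hDx, hDy]; simp [hy0])
  have n2 : x + (y + x * y) ∉ pw K p := not_mem_of_der D (by
    rw [map_add, map_add, der_mul, hDx, hDy]
    intro h0
    exact hy1 (by linear_combination h0))
  have i1 : Ind p x (y + x * y) := ind_of_der p D E (by
    rw [map_add, map_add, der_mul, der_mul, hDx, hDy, hEx, hEy]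
    intro h0
    exact hx1 (by linear_combination h0))
  have i2 : Ind p y (x * y) := ind_of_der p D E (by
    rw [der_mul, der_mul, hDx, hDy, hEx, hEy]
    intro h0
    exact hy0 (by linear_combination -h0))
  have e1 : cc p (β (x * y)) = cc p (β x * β y) := by
    rw [← h.cc_eq _ n1, cc_mul p hx0 hy0, cc_mul p hX0 hY0, map_add Ψ, h.cc_eq x hx, h.cc_eq y hy]
  obtain ⟨c, hc, -, f1⟩ := exists_of_cc_eq p (ne_zero_of_not_mem (h.not_mem _ n1))
    (mul_ne_zero hX0 hY0) e1
  have e2 := h.cc_add_one _ n2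
  have hne := add_one_ne_zero_of_not_mem (h.not_mem _ n2)
  have q : x + (y + x * y) + 1 = (x + 1) * (y + 1) := by ring
  rw [q, cc_mul p hx1 hy1, map_add Ψ, h.cc_add_one x hx, h.cc_add_one y hy,
    ← cc_mul p hX1 hY1] at e2
  obtain ⟨t, ht, -, f2⟩ := exists_of_cc_eq p hne (mul_ne_zero hX1 hY1) e2.symm
  rw [h.add i1, h.add i2, f1] at f2
  obtain ⟨D', E', hDX, hDY, hEX, hEY⟩ := hXY.exists_der
  have g1 := congrArg D' f2
  rw [map_add, map_add, map_add, der_pw_mul p D' hc, der_pw_mul p D' ht, der_mul, der_mul, map_add,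
    map_add, hDX, hDY, D'.map_one_eq_zero] at g1
  obtain ⟨k1, -, k3⟩ := lin_indep hXY (a := 1 - t) (b := 0) (c := c - t)
    (sub_mem (one_mem _) ht) (zero_mem _) (sub_mem hc ht) (by linear_combination g1)
  rw [f1]
  linear_combination β x * β y * (k3 - k1)

theorem Pre.diff_eq (h : Pre p Ψ β) (hK : ∀ z : K, ∃ y, y ∉ adj (pw K p) z) {z : K}
    (hz : z ∈ pw K p) {y y' : K} (hy : y ∉ pw K p) (hy' : y' ∉ pw K p) :
    β (z + y) - β y = β (z + y') - β y' := by
  have key : ∀ y y' : K, y ∉ pw K p → y' ∉ adj (pw K p) y →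
      β (z + y) - β y = β (z + y') - β y' := by
    intro y y' hy hy'
    have i1 : Ind p y (y' - y) := ⟨hy, fun h0 => hy' (by
      have := add_mem h0 (self_mem_adj (pw K p) y)
      rwa [sub_add_cancel] at this)⟩
    have i2 : Ind p (z + y) (y' - y) := by
      refine ⟨fun h0 => hy ?_, fun h0 => i1.2 (adj_le (le_adj _ _) ?_ h0)⟩
      · have := sub_mem h0 hz
        rwa [add_sub_cancel_left] at this
      · exact add_mem (le_adj _ _ hz) (self_mem_adj _ _)
    have e1 := h.add i1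
    have e2 := h.add i2
    rw [add_sub_cancel] at e1
    rw [show z + y + (y' - y) = z + y' by ring] at e2
    rw [e1, e2]
    ring
  by_cases hyy : y' ∈ adj (pw K p) y
  · obtain ⟨w, hw⟩ := hK y
    rw [key y w hy hw, key y' w hy' (fun h0 => hw (adj_le (le_adj _ _) hyy h0))]
  · exact key y y' hy hyy

theorem Pre.exists_hom (h : Pre p Ψ β) (hK : ∀ z : K, ∃ y, y ∉ adj (pw K p) z) :
    ∃ α : K →+* L, ∀ x : K, Ψ (cc p x) = cc p (α x) := by
  classical
  obtain ⟨y₀, hy₀'⟩ := hK 0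
  have hy₀ : y₀ ∉ pw K p := fun h => hy₀' (le_adj _ _ h)
  let a : K → L := fun z => if z ∈ pw K p then β (z + y₀) - β y₀ else β z
  have ha : ∀ z, z ∉ pw K p → a z = β z := fun z hz => if_neg hz
  have ha' : ∀ z, z ∈ pw K p → ∀ y, y ∉ pw K p → a z = β (z + y) - β y := fun z hz y hy => by
    rw [← h.diff_eq hK hz hy₀ hy]
    exact if_pos hz
  have hadd0 : ∀ z y, y ∉ adj (pw K p) z → a (z + y) = a z + a y := by
    intro z y hy
    have hy' : y ∉ pw K p := fun h => hy (le_adj _ _ h)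
    have hzy : z + y ∉ pw K p := fun h0 => hy (by
      have := sub_mem (le_adj _ z h0) (self_mem_adj (pw K p) z)
      rwa [add_sub_cancel_left] at this)
    rw [ha _ hzy, ha _ hy']
    by_cases hz : z ∈ pw K p
    · rw [ha' z hz y hy']; ring
    · rw [ha z hz, h.add ⟨hz, hy⟩]
  have hadd : ∀ z w, a (z + w) = a z + a w := by
    intro z w
    by_cases hw : w ∈ adj (pw K p) z
    · obtain ⟨y, hy⟩ := hK z
      have e1 := hadd0 (z + w) y (fun h0 => hy (adj_le (le_adj _ _)
        (add_mem (self_mem_adj _ _) hw) h0))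
      have e2 := hadd0 z (w + y) (fun h0 => hy (by
        have := sub_mem h0 hw
        rwa [add_sub_cancel_left] at this))
      have e3 := hadd0 w y (fun h0 => hy (adj_le (le_adj _ _) hw h0))
      rw [add_assoc, e2, e3] at e1
      linear_combination -e1
    · exact hadd0 z w hw
  have hsub : ∀ z w, a (z - w) = a z - a w := by
    intro z w
    have := hadd (z - w) w
    rw [sub_add_cancel] at this
    linear_combination -this
  have hmul1 : ∀ z y, Ind p z y → a (z * y) = a z * a y := by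
    intro z y hzy
    obtain ⟨D, E, hDx, hDy, hEx, hEy⟩ := hzy.exists_der
    have n1 : z * y ∉ pw K p := not_mem_of_der D (by
      rw [der_mul, hDx, hDy]; simp [hzy.right_ne])
    rw [ha _ n1, ha _ hzy.1, ha _ hzy.right_not_mem, h.mul hzy]
  have hmul0 : ∀ z y, y ∉ adj (pw K p) z → a (z * y) = a z * a y := by
    intro z y hy
    have hy' : y ∉ pw K p := fun h => hy (le_adj _ _ h)
    by_cases hz : z ∈ pw K p
    · obtain ⟨w, hw⟩ := hK y
      have i1 : Ind p w y := Ind.symm p ⟨hy', hw⟩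
      have i2 : Ind p (z + w) y := Ind.symm p ⟨hy', fun h0 => hw (by
        have := sub_mem h0 (le_adj _ y hz)
        rwa [add_sub_cancel_left] at this)⟩
      rw [show z * y = (z + w) * y - w * y by ring, hsub, hmul1 _ _ i1, hmul1 _ _ i2, hadd]
      ring
    · exact hmul1 z y ⟨hz, hy⟩
  have hmul : ∀ z w, a (z * w) = a z * a w := by
    intro z w
    by_cases hw : w ∈ adj (pw K p) z
    · obtain ⟨y, hy⟩ := hK z
      have h1 : w + y ∉ adj (pw K p) z := fun h0 => hy (by
        have := sub_mem h0 hw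
        rwa [add_sub_cancel_left] at this)
      rw [show z * w = z * (w + y) - z * y by ring, hsub, hmul0 _ _ h1, hmul0 _ _ hy, hadd]
      ring
    · exact hmul0 z w hw
  have hzero : a 0 = 0 := by
    have := hsub 0 0
    rwa [sub_self, sub_self] at this
  have hone : a 1 = 1 := by
    have h1 := hmul y₀ 1
    rw [mul_one, ha _ hy₀] at h1
    have h2 := ne_zero_of_not_mem (h.not_mem _ hy₀)
    apply mul_left_cancel₀ h2
    linear_combination -h1
  let α : K →+* L :=
    { toFun := a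
      map_one' := hone
      map_mul' := hmul
      map_zero' := hzero
      map_add' := hadd }
  refine ⟨α, fun x => ?_⟩
  by_cases hx : x ∈ pw K p
  · obtain ⟨t, rfl⟩ := (mem_pw p).1 hx
    rw [cc_pw p hx, map_zero, map_pow, cc_pw p (pow_mem_pw p _)]
  · rw [h.cc_eq x hx]
    exact congrArg _ (ha x hx).symm

theorem exists_hom_of_par (Θ : KOne K p ≃ₗ[ZMod p] KOne L p)
    (hΘ : ∀ a b, Par p a b ↔ Par p (Θ a) (Θ b)) (hK : ∀ z : K, ∃ y, y ∉ adj (pw K p) z) :
    ∃ j : ZMod p, j ≠ 0 ∧ ∃ α : K →+* L, ∀ x : K, j • Θ (cc p x) = cc p (α x) := by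
  obtain ⟨j, hj, hgood⟩ := exists_good p Θ hΘ hK
  choose! β hβ using hgood
  let Ψ : KOne K p →+ KOne L p := (j • Θ.toLinearMap).toAddMonoidHom
  have hΨ : ∀ a, Ψ a = j • Θ a := fun a => rfl
  have hpre : Pre p Ψ β :=
    { par := fun a b hab => by
        rw [hΘ]
        rw [hΨ, hΨ] at hab
        have h1 := (((hab.smul_right p j⁻¹).symm p).smul_right p j⁻¹).symm p
        rwa [smul_smul, smul_smul, inv_mul_cancel₀ hj, one_smul, one_smul] at h1
      not_mem := fun x hx => (hβ x hx).1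
      cc_eq := fun x hx => (hβ x hx).2.1
      cc_add_one := fun x hx => (hβ x hx).2.2 }
  exact ⟨j, hj, hpre.exists_hom hK⟩

/-- Two homomorphisms inducing proportional maps agree. -/
theorem hom_unique (α α' : K →+* L) {j j' : ZMod p} (hj : j ≠ 0)
    (hK : ∃ y, y ∉ pw K p) (hα : ∀ x, x ∉ pw K p → α x ∉ pw L p)
    (hα' : ∀ x, x ∉ pw K p → α' x ∉ pw L p)
    (h : ∀ x : K, j' • cc p (α x) = j • cc p (α' x)) : α = α' := by
  have h1 : ∀ x, x ∉ pw K p → α x = α' x := fun x hx => by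
    refine (unique_of_cc p (hα x hx) (hα' x hx) hj (h x) ?_).2
    have := h (x + 1)
    rwa [map_add, map_add, map_one, map_one] at this
  ext x
  by_cases hx : x ∈ pw K p
  · obtain ⟨y, hy⟩ := hK
    have hxy : x + y ∉ pw K p := fun h0 => hy (by
      have := sub_mem h0 hx
      rwa [add_sub_cancel_left] at this)
    have e := h1 _ hxy
    rw [map_add, map_add, h1 y hy] at e
    exact add_right_cancel e
  · exact h1 x hx

end Crest.Agent.R9
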